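import Vale.Agent.P181.Six.U.Exs
import Vale.Agent.P181.Six.F.S12

set_option maxRecDepth 100000
set_option maxHeartbeats 0

namespace Vale.Agent.P181.K

noncomputable def JE12 : Job := ⟨12, 78, 36, 87, 21, 4, 2⟩

theorem ex12 : exact6 JE12 tE12 1 1 6 12 20 32 srcF12 = true := by
  decide +kernel

end Vale.Agent.P181.K
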