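import Vale.Agent.P181.Six.U.Exs
import Vale.Agent.P181.Six.F.S13

set_option maxRecDepth 100000
set_option maxHeartbeats 0

namespace Vale.Agent.P181.K

noncomputable def JE13 : Job := ⟨13, 84, 36, 93, 9, 4, 2⟩

theorem ex13 : exact6 JE13 tE13 1 1 6 12 20 32 srcF13 = true := by
  decide +kernel

end Vale.Agent.P181.K
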