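import Vale.Agent.P181.Six.U.Exs
import Vale.Agent.P181.Six.T.S24

set_option maxRecDepth 100000
set_option maxHeartbeats 0

namespace Vale.Agent.P181.K

noncomputable def JE24 : Job := ⟨24, 150, 38, 159, 8, 4, 2⟩

theorem ex24 : exact6 JE24 tE24 1 1 6 12 20 32 srcT24 = true := by
  decide +kernel

end Vale.Agent.P181.K
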