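import Vale.Agent.P181.Six.U.Exs
import Vale.Agent.P181.Six.F.S8

set_option maxRecDepth 100000
set_option maxHeartbeats 0

namespace Vale.Agent.P181.K

noncomputable def JE8 : Job := ⟨8, 54, 36, 63, 15, 11, 7⟩

theorem ex8 : exact6 JE8 tE8 1 1 6 12 20 32 srcF8 = true := by
  decide +kernel

end Vale.Agent.P181.K
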