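import Vale.Agent.P181.Six.K2
import Vale.Agent.P181.Six.F.S0
import Vale.Agent.P181.Six.F.S1
import Vale.Agent.P181.Six.F.S2
import Vale.Agent.P181.Six.F.S3
import Vale.Agent.P181.Six.F.S4
import Vale.Agent.P181.Six.F.S5
import Vale.Agent.P181.Six.F.S6
import Vale.Agent.P181.Six.F.S7
import Vale.Agent.P181.Six.F.S8
import Vale.Agent.P181.Six.F.S9
import Vale.Agent.P181.Six.F.S10
import Vale.Agent.P181.Six.F.S11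
import Vale.Agent.P181.Six.F.S12
import Vale.Agent.P181.Six.F.S13
import Vale.Agent.P181.Six.F.S14
import Vale.Agent.P181.Six.F.S15
import Vale.Agent.P181.Six.T.S15
import Vale.Agent.P181.Six.T.S16
import Vale.Agent.P181.Six.T.S17
import Vale.Agent.P181.Six.T.S18
import Vale.Agent.P181.Six.T.S19
import Vale.Agent.P181.Six.T.S20
import Vale.Agent.P181.Six.T.S21
import Vale.Agent.P181.Six.T.S22
import Vale.Agent.P181.Six.T.S23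
import Vale.Agent.P181.Six.T.S24
import Vale.Agent.P181.Six.R.S15
import Vale.Agent.P181.Six.R.S16
import Vale.Agent.P181.Six.R.S17
import Vale.Agent.P181.Six.R.S18

set_option maxRecDepth 100000
set_option maxHeartbeats 0

namespace Vale.Agent.P181.K

noncomputable def srcs : Ls Src := (Ls.cons ⟨0, srcF0⟩
  (Ls.cons ⟨1, srcF1⟩
  (Ls.cons ⟨2, srcF2⟩
  (Ls.cons ⟨3, srcF3⟩
  (Ls.cons ⟨4, srcF4⟩
  (Ls.cons ⟨5, srcF5⟩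
  (Ls.cons ⟨6, srcF6⟩
  (Ls.cons ⟨7, srcF7⟩
  (Ls.cons ⟨8, srcF8⟩
  (Ls.cons ⟨9, srcF9⟩
  (Ls.cons ⟨10, srcF10⟩
  (Ls.cons ⟨11, srcF11⟩
  (Ls.cons ⟨12, srcF12⟩
  (Ls.cons ⟨13, srcF13⟩
  (Ls.cons ⟨14, srcF14⟩
  (Ls.cons ⟨15, srcF15⟩
  (Ls.cons ⟨15, srcT15⟩
  (Ls.cons ⟨16, srcT16⟩
  (Ls.cons ⟨17, srcT17⟩
  (Ls.cons ⟨18, srcT18⟩
  (Ls.cons ⟨19, srcT19⟩
  (Ls.cons ⟨20, srcT20⟩
  (Ls.cons ⟨21, srcT21⟩
  (Ls.cons ⟨22, srcT22⟩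
  (Ls.cons ⟨23, srcT23⟩
  (Ls.cons ⟨24, srcT24⟩
  (Ls.cons ⟨15, srcR15⟩
  (Ls.cons ⟨16, srcR16⟩
  (Ls.cons ⟨17, srcR17⟩
  (Ls.cons ⟨18, srcR18⟩ Ls.nil))))))))))))))))))))))))))))))

end Vale.Agent.P181.K
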